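import Vale.Agent.P088.R2.H165.Tab
import Vale.Agent.P088.R2.H808.E.PF

/-!
# P088, stage 3, EST': payments on the layer `r` (`c₀ ≤ r ≤ 2 c₀`), near zones against zone A

`MI` pays `coA`; `M0`, `MII` are payers of `coA` in the sense of `H808.PF`; `MA` pays `c0`, `cI`, `cII`.
-/

open MeasureTheory Set Filter

noncomputable section

namespace Vale.Agent.P088.R2.H165.PR

open Vale.Agent.P088.R2.H961.GW Vale.Agent.P088.R2.H960.W Vale.Agent.P088.R2.H644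
open Vale.Agent.P088.R2.H551.E Vale.Agent.P088.R2.H747.SW Vale.Agent.P088.R2.H808.PF
open Vale.Agent.P088.R2.H165.Tab

variable {E ι : Type*} [NormedAddCommGroup E] [NormedSpace ℝ E] [Fintype ι]

/-- `|X a - X b|² ≤ 2 |X a|² + 2 |X b|²`. -/
theorem nY_le (σ τ : Sl E ι) (W a b : E → ℝ) (z : E) :
    nY σ τ W a b z ≤ 2 * nX σ W a z + 2 * nX τ W b z := by
  unfold nY nX
  rw [Finset.mul_sum, Finset.mul_sum, ← Finset.sum_add_distrib]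
  refine Finset.sum_le_sum fun i _ => ?_
  nlinarith [sq_nonneg (Ch.XX σ W a z i + Ch.XX τ W b z i)]

/-- The pointwise payment for one pair: `s` moves the costs of `a²`, `b²` to `(a + b)²`, `(a - b)²`
(`s < 0`: the converse), `t ≥ 0` moves the cost of `|X a - X b|²` to `|X a|²`, `|X b|²`. -/
theorem dens_le_of2 {σ τ : Sl E ι} {v₁ v₂ W a b : E → ℝ} {z : E} {p q : Q8 E} (s t : ℝ)
    (ht : 0 ≤ t) (hκ : p.κ z ≤ q.κ z) (hζ₁ : p.ζ₁ z + 2 * t ≤ q.ζ₁ z)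
    (hζ₂ : p.ζ₂ z + 2 * t ≤ q.ζ₂ z) (hζy : p.ζy z ≤ q.ζy z + t) (hw₁ : p.w₁ z ≤ q.w₁ z + 2 * s)
    (hw₂ : p.w₂ z ≤ q.w₂ z + 2 * s) (hwb : p.wb z + s ≤ q.wb z) (hwc : p.wc z + s ≤ q.wc z) :
    p.dens σ τ v₁ v₂ W a b z ≤ q.dens σ τ v₁ v₂ W a b z := by
  unfold Q8.dens
  have k0 := sqd_nonneg σ τ v₁ v₂ W a b z
  have k1 := Q8.nX_nonneg σ W a z
  have k2 := Q8.nX_nonneg τ W b z
  have k3 := Q8.nY_nonneg σ τ W a b z
  have k4 := nY_le σ τ W a b z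
  have j0 := mul_le_mul_of_nonneg_right hκ k0
  have j1 := mul_le_mul_of_nonneg_right hζ₁ k1
  have j2 := mul_le_mul_of_nonneg_right hζ₂ k2
  have j3 := mul_le_mul_of_nonneg_right hζy k3
  have j4 := mul_le_mul_of_nonneg_right hw₁ (sq_nonneg (a z))
  have j5 := mul_le_mul_of_nonneg_right hw₂ (sq_nonneg (b z))
  have j6 := mul_le_mul_of_nonneg_right hwb (sq_nonneg (a z + b z))
  have j7 := mul_le_mul_of_nonneg_right hwc (sq_nonneg (a z - b z))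
  have j8 := mul_le_mul_of_nonneg_left k4 ht
  simp only [add_mul] at j1 j2 j3 j4 j5 j6 j7
  linarith [j0, j1, j2, j3, j4, j5, j6, j7, j8]

/-! ## Payers of `coA` -/

/-- Region I pays `q coA`. -/
theorem coA_le_MI {σ τ : Sl E ι} {W m χ : E → ℝ} {ν : Nu E} {c q η B D : ℝ} {z : E}
    (hc : 0 < c) (hq : 0 ≤ q) (hη : 0 < η) (hB : 0 ≤ B) (hm : 0 ≤ m z)
    (hF₁ : 0 ≤ ν.F₁ z) (hF₂ : 0 ≤ ν.F₂ z)
    (c₁ : Cb σ W χ B D (ν.F₁ z) z) (c₂ : Cb τ W χ B D (ν.F₂ z) z)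
    (hw : 0 ≤ ν.wI z) (hE : 0 ≤ ν.En z)
    (n1 : q * (32 * η * B) ≤ c) (n2 : q * (6 * B / η) * m z ≤ c / 2 * ν.F₁ z)
    (n2' : q * (6 * B / η) * m z ≤ c / 2 * ν.F₂ z) (n3 : q * (144 * η * B * D) ≤ c / 2) :
    Q8.Le ((coA σ τ W m χ η).sm fun _ => q) (MI ν c) z := by
  have hr0 := rh_nonneg hm
  have hr : rh m z ≤ 1 := by
    unfold rh
    rw [div_le_one (by positivity)]
    linarith
  have sD₁ : 0 ≤ ∑ i, σ.D i χ z ^ 2 := Finset.sum_nonneg fun _ _ => sq_nonneg _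
  have sD₂ : 0 ≤ ∑ i, τ.D i χ z ^ 2 := Finset.sum_nonneg fun _ _ => sq_nonneg _
  have sW₁ : 0 ≤ ∑ i, σ.D i W z ^ 2 := Finset.sum_nonneg fun _ _ => sq_nonneg _
  have sW₂ : 0 ≤ ∑ i, τ.D i W z ^ 2 := Finset.sum_nonneg fun _ _ => sq_nonneg _
  have key1 : ∀ S : ℝ, 0 ≤ S → S ≤ B → q * (32 * η * (rh m z * S)) ≤ c := by
    intro S h0 h1
    have h2 : rh m z * S ≤ 1 * B := mul_le_mul hr h1 h0 zero_le_one
    calc q * (32 * η * (rh m z * S)) ≤ q * (32 * η * (1 * B)) := by gcongr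
      _ = q * (32 * η * B) := by ring
      _ ≤ c := n1
  have key2 : ∀ S G w Z : ℝ, 0 ≤ S → S ≤ B → G ≤ 2 * B → 0 ≤ w → w ≤ D * Z → 0 ≤ Z →
      q * (6 * B / η) * m z ≤ c / 2 * Z →
      q * (3 / η * (m z * G) + 144 * η * (rh m z * S * w)) ≤ c * Z := by
    intro S G w Z h0 h1 h2 h3 h4 h5 h6
    have e1 : m z * G ≤ m z * (2 * B) := mul_le_mul_of_nonneg_left h2 hm
    have e2 : rh m z * S * w ≤ 1 * B * (D * Z) :=
      mul_le_mul (mul_le_mul hr h1 h0 zero_le_one) h4 h3 (by positivity)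
    calc q * (3 / η * (m z * G) + 144 * η * (rh m z * S * w))
        ≤ q * (3 / η * (m z * (2 * B)) + 144 * η * (1 * B * (D * Z))) := by gcongr
      _ = q * (6 * B / η) * m z + q * (144 * η * B * D) * Z := by ring
      _ ≤ c / 2 * Z + c / 2 * Z := add_le_add h6 (mul_le_mul_of_nonneg_right n3 h5)
      _ = c * Z := by ring
  refine ⟨?_, ?_, ?_, ?_, ?_, ?_, ?_, ?_⟩
  · simpa [Q8.sm, coA, MI] using hc.le
  · simp only [Q8.sm, coA, MI, Pi.mul_apply]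
    exact key1 _ sD₁ c₁.d
  · simp only [Q8.sm, coA, MI, Pi.mul_apply]
    exact key1 _ sD₂ c₂.d
  · simp only [Q8.sm, coA, MI, Pi.mul_apply, mul_zero]
    positivity
  · simp only [Q8.sm, coA, MI, Pi.mul_apply]
    exact key2 _ _ _ _ sD₁ c₁.d c₁.g sW₁ c₁.w hF₁ n2
  · simp only [Q8.sm, coA, MI, Pi.mul_apply]
    exact key2 _ _ _ _ sD₂ c₂.d c₂.g sW₂ c₂.w hF₂ n2'
  · simp only [Q8.sm, coA, MI, Pi.mul_apply, mul_zero]
    positivity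
  · simp only [Q8.sm, coA, MI, Pi.mul_apply, mul_zero]
    positivity

omit [NormedAddCommGroup E] [NormedSpace ℝ E] in
/-- Region 0 is a payer of `coA`: `μ = c (En + s N)`, `X = Y = N²`. -/
theorem pays_M0 {ν : Nu E} {c s : ℝ} {z : E} (hc : 0 ≤ c) (hE : 0 ≤ ν.En z) :
    Pays (M0 ν c s) (c * (ν.En z + s * ν.N z)) (ν.N z ^ 2) (ν.N z ^ 2) z where
  κ := by simpa [M0] using hc
  ζ₁ := by simp [M0]
  ζ₂ := by simp [M0]
  ζy := by simp only [M0]; positivity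
  w₁ := by simp only [M0]; exact le_of_eq (by ring)
  w₂ := by simp only [M0]; exact le_of_eq (by ring)
  wb := by simp [M0]
  wc := by simp [M0]

omit [NormedAddCommGroup E] [NormedSpace ℝ E] in
/-- Zone II is a payer of `coA`: `μ = k / 4`, `X = F₁`, `Y = F₂`. -/
theorem pays_MII {ν : Nu E} {z : E} (hk : 0 ≤ ν.k z) (hr : 0 ≤ ν.r2 z) :
    Pays (MII ν) (1 / 4 * ν.k z) (ν.F₁ z) (ν.F₂ z) z where
  κ := by simp [MII]
  ζ₁ := by simp only [MII]; linarith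
  ζ₂ := by simp only [MII]; linarith
  ζy := by simp only [MII]; positivity
  w₁ := by simp only [MII]; exact le_of_eq (by ring)
  w₂ := by simp only [MII]; exact le_of_eq (by ring)
  wb := by simp only [MII]; positivity
  wc := by simp [MII]

/-! ## Zone A pays the costs of the near zones -/

section dens

variable {σ τ : Sl E ι} {v₁ v₂ W a b m Z Zq Zp : E → ℝ} {ν : Nu E} {C q s η κ₀ : ℝ} {z : E}

/-- Zone A pays region 0. -/
theorem pay_c0_MA (hκ : κ₀ ≤ 1)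
    (hζ : q * (C * (η * ((ν.En z + s * ν.N z) / (1 + (ν.En z + s * ν.N z)) * Z z))) ≤ m z)
    (hw₁ : q * (C * ((1 / η * (ν.K z + (ν.En z + s * ν.N z)) +
      η * ν.N z ^ 2 * ((ν.En z + s * ν.N z) / (1 + (ν.En z + s * ν.N z)))) * Z z)) ≤
      1 / 3 * (m z * σ.F W z))
    (hw₂ : q * (C * ((1 / η * (ν.K z + (ν.En z + s * ν.N z)) +
      η * ν.N z ^ 2 * ((ν.En z + s * ν.N z) / (1 + (ν.En z + s * ν.N z)))) * Z z)) ≤
      1 / 3 * (m z * τ.F W z)) :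
    q * (c0 ν C s Z η).dens σ τ v₁ v₂ W a b z ≤ (MA σ τ W m κ₀).dens σ τ v₁ v₂ W a b z := by
  rw [← Q8.dens_sm (fun _ => q)]
  refine dens_le_of2 0 0 le_rfl ?_ ?_ ?_ ?_ ?_ ?_ ?_ ?_ <;>
    simp only [Q8.sm, c0, MA, Pi.mul_apply, mul_zero, add_zero, le_refl]
  · linarith
  · exact hζ
  · exact hζ
  · exact hw₁
  · exact hw₂

/-- Zone A pays region I. -/
theorem pay_cI_MA (hκ : κ₀ ≤ 1) (hm : 0 ≤ m z) {T : ℝ} (hb : q * (C * (ν.En z * Zq z)) ≤ T)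
    (hc : q * (C * (ν.En z * Zp z + Zq z)) ≤ T) (hw₁ : 2 * T ≤ 1 / 3 * (m z * σ.F W z))
    (hw₂ : 2 * T ≤ 1 / 3 * (m z * τ.F W z)) :
    q * (cI ν C Zq Zp).dens σ τ v₁ v₂ W a b z ≤ (MA σ τ W m κ₀).dens σ τ v₁ v₂ W a b z := by
  rw [← Q8.dens_sm (fun _ => q)]
  refine dens_le_of2 (-T) 0 le_rfl ?_ ?_ ?_ ?_ ?_ ?_ ?_ ?_ <;>
    simp only [Q8.sm, cI, MA, Pi.mul_apply, mul_zero, add_zero, le_refl]
  · linarith
  · exact hm
  · exact hm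
  · linarith
  · linarith
  · linarith
  · linarith

/-- Zone A pays zone II (and the core without its `sqd`). -/
theorem pay_cII_MA (hκ : κ₀ ≤ 1) (hq : 0 ≤ q) (hC : 0 ≤ C) (hZ : 0 ≤ Z z) (hr : 0 ≤ ν.r2 z)
    (hζ : q * (C * Z z) * (1 + 2 * (ν.r2 z)⁻¹) ≤ m z)
    (hw₁ : q * (C * Z z) * (ν.F₁ z + 2 * ν.En z ^ 2) ≤ 1 / 3 * (m z * σ.F W z))
    (hw₂ : q * (C * Z z) * (ν.F₂ z + 2 * ν.En z ^ 2) ≤ 1 / 3 * (m z * τ.F W z)) :
    q * (cII ν C Z).dens σ τ v₁ v₂ W a b z ≤ (MA σ τ W m κ₀).dens σ τ v₁ v₂ W a b z := by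
  rw [← Q8.dens_sm (fun _ => q)]
  have hT : 0 ≤ q * (C * Z z) := mul_nonneg hq (mul_nonneg hC hZ)
  have hi : 0 ≤ (ν.r2 z)⁻¹ := inv_nonneg.2 hr
  refine dens_le_of2 (-(q * (C * Z z) * ν.En z ^ 2)) (q * (C * Z z) * (ν.r2 z)⁻¹)
    (mul_nonneg hT hi) ?_ ?_ ?_ ?_ ?_ ?_ ?_ ?_ <;>
    simp only [Q8.sm, cII, uf, MA, Pi.mul_apply, mul_zero]
  · linarith
  · linarith
  · linarith
  · linarith
  · linarith
  · linarith
  · linarith
  · have := mul_nonneg hT (sq_nonneg (ν.En z))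
    linarith

end dens

end Vale.Agent.P088.R2.H165.PR
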