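import Vale.Agent.P088.R2.H338.E.Pay

/-!
# P088, stage 3, EST': the table of margins and costs

The numbers of a point (rate units): `En = e^u`, `N = Φ'(u)`, `K = Φ''(u)`, `r2 = r²`, `m = En r²`,
`k` the convexity weight of zone II, `s = σ / R`, `F₁ = Γ_x(W, W)`, `F₂ = Γ_y(W, W)`.

`M..` are the margins (without the factor `χ²`), `c..` the costs (densities; `Z` contains the
derivatives of the cut-off and the cut-off itself).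
-/

open Set

noncomputable section

namespace Vale.Agent.P088.R2.H165.Tab

open Vale.Agent.P088.R2.H551.E

variable {E : Type*} [NormedAddCommGroup E]

/-- The numbers of a point. -/
structure Nu (E : Type*) where
  /-- `e^u` -/
  En : E → ℝ
  /-- `Φ'(u)` -/
  N : E → ℝ
  /-- `Φ''(u)` -/
  K : E → ℝ
  /-- `r²` -/
  r2 : E → ℝ
  /-- `En r²` -/
  m : E → ℝ
  /-- the convexity weight of zone II -/
  k : E → ℝ
  /-- `Γ_x(W, W)` -/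
  F₁ : E → ℝ
  /-- `Γ_y(W, W)` -/
  F₂ : E → ℝ

variable (ν : Nu E) (c C s : ℝ) (Z Zq Zp : E → ℝ) (z : E)

/-- The weight of `(a - b)²` in region I. -/
def Nu.wI (z : E) : ℝ :=
  ν.N z ^ 2 * ν.En z ^ 2 / (ν.En z * (1 + ν.m z) + ν.N z ^ 2)

/-- The weight of `(a - b)²` in the core. -/
def Nu.wB (z : E) : ℝ := ν.En z * (ν.N z + 1 + ν.m z) ^ 2 / (1 + ν.m z)

/-! ## Margins -/

/-- Region 0. -/
def M0 : Q8 E where
  κ _ := c
  ζ₁ z := c * (ν.En z + s * ν.N z)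
  ζ₂ z := c * (ν.En z + s * ν.N z)
  ζy z := c * ν.En z
  w₁ z := c * ((ν.En z + s * ν.N z) * ν.N z ^ 2)
  w₂ z := c * ((ν.En z + s * ν.N z) * ν.N z ^ 2)
  wb _ := 0
  wc _ := 0

/-- Region I. -/
def MI : Q8 E where
  κ _ := c
  ζ₁ _ := c
  ζ₂ _ := c
  ζy z := c * ν.En z
  w₁ z := c * ν.F₁ z
  w₂ z := c * ν.F₂ z
  wb z := c * ν.En z ^ 2
  wc z := c * ν.wI z

/-- Zone II (regions II of zone C and B2). -/
def MII : Q8 E where
  κ _ := 1 / 2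
  ζ₁ z := 1 / 2 * ν.k z
  ζ₂ z := 1 / 2 * ν.k z
  ζy z := 1 / 4 * (ν.r2 z)⁻¹
  w₁ z := 1 / 4 * (ν.k z * ν.F₁ z)
  w₂ z := 1 / 4 * (ν.k z * ν.F₂ z)
  wb z := ν.En z ^ 2
  wc _ := 0

/-- The core B1. -/
def MB : Q8 E where
  κ _ := c
  ζ₁ _ := c
  ζ₂ _ := c
  ζy z := c * (ν.En z / (1 + ν.m z))
  w₁ z := c * ν.F₁ z
  w₂ z := c * ν.F₂ z
  wb z := c * ν.En z ^ 2
  wc z := c * ν.wB z

/-! ## Costs -/

/-- Region 0: `Z = |D_x χ|² + |D_y χ|²`, `η` small; `x = En + s N`, the factor `x / (1 + x)` is the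
bound of `ρ (m)`. -/
def c0 (η : ℝ) : Q8 E where
  κ _ := 0
  ζ₁ z := C * (η * ((ν.En z + s * ν.N z) / (1 + (ν.En z + s * ν.N z)) * Z z))
  ζ₂ z := C * (η * ((ν.En z + s * ν.N z) / (1 + (ν.En z + s * ν.N z)) * Z z))
  ζy _ := 0
  w₁ z := C * ((1 / η * (ν.K z + (ν.En z + s * ν.N z)) +
    η * ν.N z ^ 2 * ((ν.En z + s * ν.N z) / (1 + (ν.En z + s * ν.N z)))) * Z z)
  w₂ z := C * ((1 / η * (ν.K z + (ν.En z + s * ν.N z)) +
    η * ν.N z ^ 2 * ((ν.En z + s * ν.N z) / (1 + (ν.En z + s * ν.N z)))) * Z z)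
  wb _ := 0
  wc _ := 0

/-- Region I: `Zq = |D_q χ|² + |D_p χ|²`, `Zp = |D_p χ|²`. -/
def cI : Q8 E where
  κ _ := 0
  ζ₁ _ := 0
  ζ₂ _ := 0
  ζy _ := 0
  w₁ _ := 0
  w₂ _ := 0
  wb z := C * (ν.En z * Zq z)
  wc z := C * (ν.En z * Zp z + Zq z)

/-- The unit density of zone II. -/
def uf : Q8 E where
  κ _ := 0
  ζ₁ _ := 1
  ζ₂ _ := 1
  ζy z := (ν.r2 z)⁻¹
  w₁ z := ν.F₁ z
  w₂ z := ν.F₂ z
  wb z := ν.En z ^ 2
  wc _ := 0

/-- Zone II. -/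
def cII : Q8 E := (uf ν).sm fun z => C * Z z

/-- The unit density of the core (regular on the diagonal). -/
def uB : Q8 E where
  κ _ := 0
  ζ₁ _ := 1
  ζ₂ _ := 1
  ζy z := ν.En z / (1 + ν.m z)
  w₁ z := ν.F₁ z
  w₂ z := ν.F₂ z
  wb z := ν.En z ^ 2
  wc z := ν.wB z

/-- The core: `Zq` at `sqd`. -/
def cB : Q8 E := (uB ν).sm (fun z => C * Z z) + ⟨fun z => C * Zq z, 0, 0, 0, 0, 0, 0, 0⟩

end Vale.Agent.P088.R2.H165.Tab
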